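import Vale.Agent.P157.Sph

namespace Vale.Agent.Results.P157.LimitExists

open MeasureTheory Filter Topology Vale.Agent.P157

theorem result (ν : Measure ℝ) (hν : ν Set.univ < 1) (c α : ℝ) (hα : 0 < α) (f : ℝ → ℝ)
    (hf : ∀ z, f z = c + Real.log (1 - ∫ w, Real.cos (w * z) ∂ν)) :
    (∃ P : ℝ, Tendsto (meanPressure cube α f) atTop (𝓝 P)) ∧
      ∃ P : ℝ, Tendsto (meanPressure sph α f) atTop (𝓝 P) := by
  haveI : IsFiniteMeasure ν := ⟨hν.trans ENNReal.one_lt_top⟩
  have h : ν.real Set.univ < 1 := by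
    rw [← ENNReal.toReal_one]
    exact ENNReal.toReal_strict_mono ENNReal.one_ne_top hν
  obtain rfl : f = pot c ν := funext hf
  obtain ⟨C⟩ := cpl_sph
  exact ⟨lim_all (cplPi _) h hα, lim_all C h hα⟩

end Vale.Agent.Results.P157.LimitExists
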